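import Mathlib

/-!
# P108: the standard map and its integrated Lyapunov exponent
-/

namespace Vale.Agent.P108

open MeasureTheory

/-- The lift to the plane of the standard map with parameter `k`. -/
noncomputable def F (k : ℝ) (z : ℝ × ℝ) : ℝ × ℝ :=
  (z.1 + z.2 + k * Real.sin (2 * Real.pi * z.1), z.2 + k * Real.sin (2 * Real.pi * z.1))

/-- The mean over the torus of the logarithm of the norm of the derivative of the `n`-th iterate. -/
noncomputable def mean (n : ℕ) (k : ℝ) : ℝ :=
  ∫ z in Set.Icc (0 : ℝ × ℝ) 1, Real.log ‖fderiv ℝ ((F k)^[n]) z‖

/-- The integrated Lyapunov exponent: the infimum over `n ≥ 1` of the means divided by `n`. By the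
subadditive ergodic theorem it is the integral of the upper Lyapunov exponent, and by the entropy
formula of Pesin it is the metric entropy. -/
noncomputable def lam (k : ℝ) : EReal := ⨅ n : ℕ, ((mean (n + 1) k / (n + 1) : ℝ) : EReal)

end Vale.Agent.P108
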