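import Vale.Agent.P108.Defs

/-!
# P108: semicontinuity of the integrated Lyapunov exponent of the standard map
-/

namespace Vale.Agent.P108

open MeasureTheory Set Filter Topology
open scoped ContDiff

theorem contDiff_F : ContDiff ℝ ∞ (fun q : ℝ × (ℝ × ℝ) => F q.1 q.2) := by
  unfold F
  fun_prop

theorem contDiff_iter (n : ℕ) : ContDiff ℝ ∞ (fun q : ℝ × (ℝ × ℝ) => (F q.1)^[n] q.2) := by
  induction n with
  | zero => exact contDiff_snd
  | succ n ih =>
    have h : (fun q : ℝ × (ℝ × ℝ) => (F q.1)^[n + 1] q.2) =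
        fun q : ℝ × (ℝ × ℝ) => (fun q : ℝ × (ℝ × ℝ) => F q.1 q.2) (q.1, (F q.1)^[n] q.2) := by
      funext q
      rw [Function.iterate_succ_apply']
    rw [h]
    exact contDiff_F.comp (contDiff_fst.prodMk ih)

/-- the inverse map -/
noncomputable def G (k : ℝ) (z : ℝ × ℝ) : ℝ × ℝ :=
  (z.1 - z.2, z.2 - k * Real.sin (2 * Real.pi * (z.1 - z.2)))

theorem left_inv (k : ℝ) : Function.LeftInverse (G k) (F k) := by
  intro z
  unfold F G
  ext
  · simp
  · simp

theorem diff_iter_F (k : ℝ) (n : ℕ) : Differentiable ℝ ((F k)^[n]) := by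
  have h : Differentiable ℝ (F k) := by
    unfold F
    fun_prop
  exact h.iterate n

theorem diff_iter_G (k : ℝ) (n : ℕ) : Differentiable ℝ ((G k)^[n]) := by
  have h : Differentiable ℝ (G k) := by
    unfold G
    fun_prop
  exact h.iterate n

theorem fderiv_ne (k : ℝ) (n : ℕ) (z : ℝ × ℝ) : fderiv ℝ ((F k)^[n]) z ≠ 0 := by
  intro h0
  have h1 : (G k)^[n] ∘ (F k)^[n] = id := by
    funext w
    exact (left_inv k).iterate n w
  have h2 : fderiv ℝ ((G k)^[n] ∘ (F k)^[n]) z = ContinuousLinearMap.id ℝ (ℝ × ℝ) := by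
    rw [h1]
    exact fderiv_id
  rw [fderiv_comp z (diff_iter_G k n _) (diff_iter_F k n _), h0] at h2
  have h3 := congrArg (fun A : (ℝ × ℝ) →L[ℝ] (ℝ × ℝ) => A (1, 0)) h2
  simp [Prod.ext_iff] at h3

theorem continuous_log (n : ℕ) :
    Continuous (fun q : ℝ × (ℝ × ℝ) => Real.log ‖fderiv ℝ ((F q.1)^[n]) q.2‖) := by
  have h1 : ContDiff ℝ ∞ (Function.uncurry
      (fun (q : ℝ × (ℝ × ℝ)) (z : ℝ × ℝ) => (F q.1)^[n] z)) := by
    have := (contDiff_iter n).comp
      ((contDiff_fst.comp (contDiff_fst (𝕜 := ℝ) (E := ℝ × (ℝ × ℝ)) (F := ℝ × ℝ))).prodMk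
        (contDiff_snd (𝕜 := ℝ) (E := ℝ × (ℝ × ℝ)) (F := ℝ × ℝ)))
    exact this
  have h2 : ContDiff ℝ 0 (fun q : ℝ × (ℝ × ℝ) => fderiv ℝ ((F q.1)^[n]) q.2) :=
    ContDiff.fderiv (m := ∞) (n := 0) h1 contDiff_snd (by simp)
  exact h2.continuous.norm.log (fun q => norm_ne_zero_iff.2 (fderiv_ne _ _ _))

theorem continuous_mean (n : ℕ) : Continuous (mean n) := by
  unfold mean
  have h : Continuous (Function.uncurry
      fun (k : ℝ) (z : ℝ × ℝ) => Real.log ‖fderiv ℝ ((F k)^[n]) z‖) := continuous_log n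
  exact continuous_parametric_integral_of_continuous h isCompact_Icc

theorem lam_usc : UpperSemicontinuous lam := by
  unfold lam
  apply upperSemicontinuous_iInf
  intro n
  have h : Continuous (fun k => ((mean (n + 1) k / (n + 1) : ℝ) : EReal)) :=
    continuous_coe_real_ereal.comp ((continuous_mean (n + 1)).div_const _)
  exact h.upperSemicontinuous

/-- closed sets -/
theorem closed_ge (c : EReal) : IsClosed {k : ℝ | c ≤ lam k} := by
  have h : {k : ℝ | c ≤ lam k} = {k : ℝ | lam k < c}ᶜ := by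
    ext k
    simp
  rw [h]
  exact (lam_usc.isOpen_preimage c).isClosed_compl

/-- the set of parameters with positive exponent as a union -/
theorem union_eq : {k : ℝ | 0 < lam k} = ⋃ j : ℕ, {k : ℝ | ((1 / ((j : ℝ) + 1) : ℝ) : EReal) ≤ lam k} := by
  ext k
  simp only [mem_setOf_eq, mem_iUnion]
  constructor
  · intro h
    obtain ⟨r, h1, h2⟩ := EReal.lt_iff_exists_real_btwn.1 h
    have h3 : 0 < r := by exact_mod_cast h1
    obtain ⟨j, hj⟩ := exists_nat_one_div_lt h3
    exact ⟨j, le_trans (by exact_mod_cast hj.le) h2.le⟩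
  · rintro ⟨j, hj⟩
    refine lt_of_lt_of_le ?_ hj
    have : (0 : ℝ) < 1 / ((j : ℝ) + 1) := by positivity
    exact_mod_cast this

/-- zero exponent is a G-delta condition -/
theorem gdelta : IsGδ {k : ℝ | lam k ≤ 0} := by
  have h : {k : ℝ | lam k ≤ 0} = ⋂ j : ℕ, {k : ℝ | lam k < ((1 / ((j : ℝ) + 1) : ℝ) : EReal)} := by
    ext k
    have := congrArg (fun S : Set ℝ => k ∈ S) union_eq
    simp only [mem_setOf_eq, mem_iUnion, eq_iff_iff] at this
    simp only [mem_setOf_eq, mem_iInter]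
    constructor
    · intro h j
      by_contra hc
      exact absurd (this.2 ⟨j, not_lt.1 hc⟩) (not_lt.2 h)
    · intro h
      by_contra hc
      obtain ⟨j, hj⟩ := this.1 (not_le.1 hc)
      exact absurd (h j) (not_lt.2 hj)
  rw [h]
  exact IsGδ.iInter fun j => (lam_usc.isOpen_preimage _).isGδ

/-- the dichotomy -/
theorem dich : (∃ a b : ℝ, a < b ∧ ∃ c : ℝ, 0 < c ∧ ∀ k ∈ Ioo a b, ((c : ℝ) : EReal) ≤ lam k) ∨
    {k : ℝ | lam k ≤ 0} ∈ residual ℝ := by
  by_cases h : ∃ j : ℕ, (interior {k : ℝ | ((1 / ((j : ℝ) + 1) : ℝ) : EReal) ≤ lam k}).Nonempty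
  · left
    obtain ⟨j, x, hx⟩ := h
    obtain ⟨e, he, hball⟩ := Metric.isOpen_iff.1 isOpen_interior x hx
    refine ⟨x - e, x + e, by linarith, 1 / ((j : ℝ) + 1), by positivity, fun k hk => ?_⟩
    have : k ∈ Metric.ball x e := by
      rw [Real.ball_eq_Ioo]
      exact hk
    have h2 := hball this
    have h3 : k ∈ {k : ℝ | ((1 / ((j : ℝ) + 1) : ℝ) : EReal) ≤ lam k} := interior_subset h2
    exact h3
  · right
    push Not at h
    have h1 : {k : ℝ | lam k ≤ 0} = ⋂ j : ℕ, {k : ℝ | ((1 / ((j : ℝ) + 1) : ℝ) : EReal) ≤ lam k}ᶜ := by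
      rw [← compl_iUnion, ← union_eq]
      ext k
      simp
    rw [h1]
    refine countable_iInter_mem.2 fun j => ?_
    refine residual_of_dense_open (closed_ge _).isOpen_compl ?_
    rw [← interior_eq_empty_iff_dense_compl]
    exact h j

/-- positive measure -/
theorem measure_iff : 0 < volume {k : ℝ | 0 < lam k} ↔
    ∃ c : ℝ, 0 < c ∧ 0 < volume {k : ℝ | ((c : ℝ) : EReal) ≤ lam k} := by
  constructor
  · intro h
    by_contra hcon
    push Not at hcon
    have h1 : volume {k : ℝ | 0 < lam k} = 0 := by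
      rw [union_eq, measure_iUnion_null_iff]
      intro j
      exact nonpos_iff_eq_zero.1 (hcon _ (by positivity))
    exact h.ne' h1
  · rintro ⟨c, hc, h⟩
    refine h.trans_le (measure_mono fun k hk => ?_)
    have h2 : (0 : EReal) < ((c : ℝ) : EReal) := by exact_mod_cast hc
    exact lt_of_lt_of_le h2 hk

end Vale.Agent.P108
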